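import Crest.Agent.R53.Null

set_option autoImplicit false

namespace Crest.Agent.R53

open Set Filter

/-- soft threshold -/
def soft (d a : ℤ) : ℤ := max (d - a) 0 - max (-d - a) 0

namespace Blocks

variable {V : Type} (β : Blocks V)

noncomputable def dd (b X : Set V) (k : ℕ) : ℤ := (β.cnt X k : ℤ) - β.cnt b k

noncomputable def term (b X : Set V) (m k : ℕ) : ℤ :=
  soft (β.dd b X k) ((β.q k / (m + 1) : ℕ) : ℤ)

noncomputable def H (b X : Set V) (m n : ℕ) : ℤ := ∑ k ∈ Finset.range n, β.term b X m k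

def Ge (b : Set V) (c : ℤ) (X : Set V) : Prop :=
  ∀ᶠ m in atTop, ∀ᶠ n in atTop, c ≤ β.H b X m n

variable {β}

theorem term_mono (b : Set V) {X Y : Set V} (h : X ⊆ Y) (m k : ℕ) :
    β.term b X m k ≤ β.term b Y m k := by
  have := cnt_mono (β := β) h k
  unfold term dd soft
  omega

theorem H_mono (b : Set V) {X Y : Set V} (h : X ⊆ Y) (m n : ℕ) : β.H b X m n ≤ β.H b Y m n :=
  Finset.sum_le_sum fun k _ => term_mono b h m k

theorem Ge.mono {b X Y : Set V} {c : ℤ} (hX : β.Ge b c X) (h : X ⊆ Y) : β.Ge b c Y :=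
  Eventually.mono hX fun m hm => hm.mono fun n hn => hn.trans (H_mono b h m n)

theorem H_insert_le (b : Set V) {X : Set V} {w : V} (hw : w ∉ X) (m n : ℕ) :
    β.H b (insert w X) m n ≤ β.H b X m n + 1 := by
  have h1 : β.H b (insert w X) m n ≤
      ∑ k ∈ Finset.range n, (β.term b X m k + if β.blk w = k then 1 else 0) := by
    refine Finset.sum_le_sum fun k _ => ?_
    unfold term dd soft
    rw [cnt_insert hw]
    generalize β.q k / (m + 1) = a
    split_ifs <;> omega
  rw [Finset.sum_add_distrib, Finset.sum_ite_eq] at h1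
  unfold H at *
  split_ifs at h1 <;> omega

theorem H_insert_eq (b : Set V) {X : Set V} {w : V} (hw : w ∉ X) {m n : ℕ}
    (hm : β.q (β.blk w) ≤ m) (hn : β.blk w < n) :
    β.H b (insert w X) m n = β.H b X m n + 1 := by
  have h1 : β.H b (insert w X) m n =
      ∑ k ∈ Finset.range n, (β.term b X m k + if β.blk w = k then 1 else 0) := by
    refine Finset.sum_congr rfl fun k _ => ?_
    unfold term dd soft
    rw [cnt_insert hw]
    split_ifs with h
    · subst h
      rw [Nat.div_eq_of_lt (by omega)]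
      omega
    · simp
  rw [Finset.sum_add_distrib, Finset.sum_ite_eq, if_pos (Finset.mem_range.2 hn)] at h1
  exact h1

theorem ge_insert {b X : Set V} {w : V} (hw : w ∉ X) (c : ℤ) :
    β.Ge b (c + 1) (insert w X) ↔ β.Ge b c X := by
  unfold Ge
  refine eventually_congr ?_
  filter_upwards [eventually_ge_atTop (β.q (β.blk w))] with m hm
  refine eventually_congr ?_
  filter_upwards [eventually_gt_atTop (β.blk w)] with n hn
  rw [H_insert_eq b hw hm hn]
  omega

theorem locality {b I Z : Set V} (hI : β.Le b I) (hZ : β.Le Z b) (m : ℕ) :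
    ∃ K, ∀ k, K ≤ k → ∀ Y, I ⊆ Y → Y ⊆ Z →
      |β.dd b Y k| ≤ ((β.q k / (m + 1) : ℕ) : ℤ) := by
  obtain ⟨K, hK⟩ := eventually_atTop.1 ((hI (m + 1)).and (hZ (m + 1)))
  refine ⟨K, fun k hk Y h1 h2 => ?_⟩
  obtain ⟨h3, h4⟩ := hK k hk
  rw [mul_comm, ← Nat.le_div_iff_mul_le (by omega)] at h3 h4
  have h5 := cnt_le_diff (β := β) Y b k
  have h6 := cnt_le_diff (β := β) b Y k
  have h7 := cnt_mono (β := β) (sdiff_subset_sdiff_left h2 : Y \ b ⊆ Z \ b) k
  have h8 := cnt_mono (β := β) (sdiff_subset_sdiff_right h1 : b \ Y ⊆ b \ I) k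
  unfold dd
  rw [abs_le]
  omega

theorem term_eq_zero {b Y : Set V} {m k : ℕ}
    (h : |β.dd b Y k| ≤ ((β.q k / (m + 1) : ℕ) : ℤ)) : β.term b Y m k = 0 := by
  unfold term soft
  rw [abs_le] at h
  omega

theorem H_stable {b Y : Set V} {m K n : ℕ} (h : ∀ k, K ≤ k → β.term b Y m k = 0) (hn : K ≤ n) :
    β.H b Y m n = β.H b Y m K :=
  Finset.eventually_constant_sum h hn

theorem finite_descent {b I : Set V} (ns : ¬ β.Ge b 1 I) (D : Set V) (hD : D.Finite) :
    β.Ge b 0 (I ∪ D) → ∃ B, I ⊆ B ∧ B ⊆ I ∪ D ∧ β.Ge b 0 B ∧ ¬ β.Ge b 1 B := by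
  induction D, hD using Set.Finite.induction_on with
  | empty => intro h; exact ⟨I, subset_rfl, subset_union_left, by simpa using h, ns⟩
  | @insert w D _ _ ih =>
    intro h
    by_cases h1 : β.Ge b 1 (I ∪ insert w D)
    · have h2 : β.Ge b 0 (I ∪ D) := by
        by_cases hw : w ∈ I ∪ D
        · rw [union_insert, insert_eq_of_mem hw] at h; exact h
        · rw [union_insert] at h1
          exact (ge_insert hw 0).1 (by simpa using h1)
      obtain ⟨B, h3, h4, h5⟩ := ih h2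
      exact ⟨B, h3, h4.trans (union_subset_union_right _ (subset_insert _ _)), h5⟩
    · exact ⟨_, subset_union_left, subset_rfl, h, h1⟩

theorem core {b I Z : Set V} (hIZ : I ⊆ Z) (hI : β.Le b I) (hZ : β.Le Z b)
    (g : β.Ge b 0 Z) (ns : ¬ β.Ge b 1 I) :
    ∃ B, I ⊆ B ∧ B ⊆ Z ∧ β.Ge b 0 B ∧ ¬ β.Ge b 1 B := by
  classical
  choose K hK using locality hI hZ
  have hiff : ∀ Y, I ⊆ Y → Y ⊆ Z → ∀ (c : ℤ) (m : ℕ),
      (∀ᶠ n in atTop, c ≤ β.H b Y m n) ↔ c ≤ β.H b Y m (K m) := by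
    intro Y h1 h2 c m
    have : ∀ᶠ n in atTop, (c ≤ β.H b Y m n ↔ c ≤ β.H b Y m (K m)) := by
      filter_upwards [eventually_ge_atTop (K m)] with n hn
      rw [H_stable (fun k hk => term_eq_zero (hK m k hk Y h1 h2)) hn]
    rw [eventually_congr this, eventually_const]
  obtain ⟨M, hM⟩ := eventually_atTop.1 g
  let S : Set (Set V) := {Y | I ⊆ Y ∧ Y ⊆ Z ∧ ∀ m, M ≤ m → 0 ≤ β.H b Y m (K m)}
  have hZS : Z ∈ S := ⟨hIZ, subset_rfl, fun m hm => (hiff Z hIZ subset_rfl 0 m).1 (hM m hm)⟩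
  obtain ⟨Y, -, hY⟩ := zorn_superset_nonempty S (by
    intro c hc hchain hne
    refine ⟨⋂₀ c, ⟨fun v hv => mem_sInter.2 fun Y hY => (hc hY).1 hv, ?_, ?_⟩,
      fun s hs => sInter_subset_of_mem hs⟩
    · obtain ⟨Y, hY⟩ := hne
      exact (sInter_subset_of_mem hY).trans (hc hY).2.1
    · intro m hm
      have key : ∀ T : Finset V, ∃ Y ∈ c, ∀ v ∈ T, v ∈ Y → v ∈ ⋂₀ c := by
        intro T
        induction T using Finset.induction_on with
        | empty => obtain ⟨Y, hY⟩ := hne; exact ⟨Y, hY, by simp⟩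
        | insert w T _ ih =>
          obtain ⟨Y, hY, hT⟩ := ih
          by_cases hw : w ∈ ⋂₀ c
          · refine ⟨Y, hY, fun v hv hvY => ?_⟩
            rcases Finset.mem_insert.1 hv with rfl | hv
            · exact hw
            · exact hT v hv hvY
          · rw [mem_sInter] at hw
            push Not at hw
            obtain ⟨Y', hY', hw⟩ := hw
            rcases hchain.total hY hY' with h | h
            · refine ⟨Y, hY, fun v hv hvY => ?_⟩
              rcases Finset.mem_insert.1 hv with rfl | hv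
              · exact absurd (h hvY) hw
              · exact hT v hv hvY
            · refine ⟨Y', hY', fun v hv hvY => ?_⟩
              rcases Finset.mem_insert.1 hv with rfl | hv
              · exact absurd hvY hw
              · exact hT v hv (h hvY)
      obtain ⟨Y, hY, hT⟩ := key ((Finset.range (K m)).biUnion β.Q)
      have : β.H b (⋂₀ c) m (K m) = β.H b Y m (K m) := by
        refine Finset.sum_congr rfl fun k hk => ?_
        unfold term dd
        rw [cnt_congr (Y := Y)]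
        intro v hv
        exact ⟨fun h => sInter_subset_of_mem hY h, fun h =>
          hT v (Finset.mem_biUnion.2 ⟨k, hk, (β.mem v k).2 hv⟩) h⟩
      rw [this]
      exact (hc hY).2.2 m hm) Z hZS
  obtain ⟨h1, h2, h3⟩ := hY.prop
  have g0 : β.Ge b 0 Y := eventually_atTop.2 ⟨M, fun m hm => (hiff Y h1 h2 0 m).2 (h3 m hm)⟩
  by_cases hs : β.Ge b 1 Y
  swap
  · exact ⟨Y, h1, h2, g0, hs⟩
  obtain ⟨M', hM'⟩ := eventually_atTop.1 hs
  let K' := (Finset.range M').sup K
  have hfin : (Y \ I).Finite := by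
    refine ((Finset.range K').biUnion β.Q).finite_toSet.subset ?_
    intro w hw
    by_contra hw'
    have hk : K' ≤ β.blk w := by
      by_contra hlt
      exact hw' (Finset.mem_coe.2 (Finset.mem_biUnion.2
        ⟨β.blk w, Finset.mem_range.2 (by omega), (β.mem _ _).2 rfl⟩))
    have hsub : Y \ {w} ⊆ Y := sdiff_subset
    have hmem : Y \ {w} ∈ S := by
      refine ⟨fun v hv => ⟨h1 hv, fun h => hw.2 (mem_singleton_iff.1 h ▸ hv)⟩,
        hsub.trans h2, fun m hm => ?_⟩
      by_cases hmM : M' ≤ m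
      · have e1 := (hiff Y h1 h2 1 m).1 (hM' m hmM)
        have e2 := H_insert_le (β := β) b (X := Y \ {w}) (w := w) (by simp) m (K m)
        rw [insert_sdiff_singleton, insert_eq_of_mem hw.1] at e2
        omega
      · have e1 : K m ≤ K' := Finset.le_sup (f := K) (Finset.mem_range.2 (by omega))
        have : β.H b (Y \ {w}) m (K m) = β.H b Y m (K m) := by
          refine Finset.sum_congr rfl fun k hk => ?_
          unfold term dd
          rw [cnt_congr (Y := Y)]
          intro v hv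
          have := Finset.mem_range.1 hk
          refine ⟨fun h => h.1, fun h => ⟨h, fun h' => ?_⟩⟩
          rw [mem_singleton_iff.1 h'] at hv
          omega
        rw [this]
        exact h3 m hm
    exact (hY.le_of_le hmem hsub hw.1).2 rfl
  obtain ⟨B, e1, e2, e3⟩ := finite_descent ns _ hfin (by rwa [union_sdiff_cancel h1])
  rw [union_sdiff_cancel h1] at e2
  exact ⟨B, e1, e2.trans h2, e3⟩

theorem esc_up {b X Z : Set V} (hX : β.Le b X) (hX' : β.Le X b) (hXZ : X ⊆ Z)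
    (hP : ¬ β.Le Z X) : ∃ Y, X ⊆ Y ∧ Y ⊆ Z ∧ β.Le Y X ∧ β.Ge b 0 Y := by
  classical
  choose K hK using locality hX hX'
  unfold Le Null at hP
  push Not at hP
  obtain ⟨m0, hm0⟩ := hP
  have hfr : ∀ m : ℕ, ∃ᶠ k in atTop, β.q k < m0 * β.cnt (Z \ X) k ∧ K m ≤ k ∧
      (β.H b X m (K m)).natAbs * (m + 1) ≤ β.q k := fun m =>
    hm0.and_eventually ((eventually_ge_atTop _).and (β.hq.eventually (eventually_ge_atTop _)))
  obtain ⟨φ, hφ, hφ'⟩ := extraction_forall_of_frequently hfr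
  choose N hN1 hN2 hN3 using fun m : ℕ => exists_subset_cnt (β := β) (Z \ X) (φ m)
    (min (β.cnt (Z \ X) (φ m)) (3 * (β.q (φ m) / (m + 1)))) (min_le_left _ _)
  have hc : ∀ m, β.cnt (⋃ j, N j) (φ m) = β.cnt (N m) (φ m) := by
    intro m
    refine cnt_congr fun v hv => ⟨fun h => ?_, fun h => mem_iUnion.2 ⟨m, h⟩⟩
    obtain ⟨j, hj⟩ := mem_iUnion.1 h
    have := hφ.injective ((hN2 j v hj).symm.trans hv)
    exact this ▸ hj
  have hdj : Disjoint X (⋃ j, N j) := by
    rw [Set.disjoint_left]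
    intro v hv h
    obtain ⟨j, hj⟩ := mem_iUnion.1 h
    exact (hN1 j hj).2 hv
  refine ⟨X ∪ ⋃ j, N j, subset_union_left,
    union_subset hXZ (iUnion_subset fun j => (hN1 j).trans sdiff_subset), ?_, ?_⟩
  · refine Le.union (Le.refl X) (Null.le ?_ X)
    intro j
    filter_upwards [eventually_ge_atTop (φ (3 * j))] with k hk
    by_cases h : ∃ m, φ m = k
    · obtain ⟨m, rfl⟩ := h
      have e1 : 3 * j ≤ m := hφ.le_iff_le.1 hk
      rw [hc, hN3]
      have e2 := Nat.div_mul_le_self (β.q (φ m)) (m + 1)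
      have e3 := min_le_right (β.cnt (Z \ X) (φ m)) (3 * (β.q (φ m) / (m + 1)))
      calc _ ≤ j * (3 * (β.q (φ m) / (m + 1))) := Nat.mul_le_mul_left _ e3
        _ ≤ _ := by nlinarith
    · rw [cnt_congr (Y := ∅), cnt_empty]
      · simp
      · intro v hv
        simp only [mem_iUnion, mem_empty_iff_false, iff_false, not_exists]
        intro m hm
        exact h ⟨m, (hN2 m v hm).symm.trans hv⟩
  · filter_upwards [eventually_ge_atTop (3 * m0)] with m hm
    filter_upwards [eventually_gt_atTop (φ m)] with n hn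
    obtain ⟨e1, e2, e3⟩ := hφ' m
    set a := β.q (φ m) / (m + 1) with ha
    have e4 := Nat.div_mul_le_self (β.q (φ m)) (m + 1)
    have e5 : 3 * a ≤ β.cnt (Z \ X) (φ m) := by
      by_contra hlt
      have : m0 * β.cnt (Z \ X) (φ m) ≤ m0 * (3 * a) := Nat.mul_le_mul_left _ (by omega)
      nlinarith
    have e6 : (β.H b X m (K m)).natAbs ≤ a := (Nat.le_div_iff_mul_le (by omega)).2 e3
    have e7 : ∑ k ∈ Finset.range n, (β.term b X m k + if φ m = k then (a : ℤ) else 0) ≤
        β.H b (X ∪ ⋃ j, N j) m n := by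
      refine Finset.sum_le_sum fun k _ => ?_
      split_ifs with h
      · subst h
        have e8 := hK m _ e2 X subset_rfl subset_rfl
        rw [term_eq_zero e8]
        unfold term dd soft
        rw [cnt_union_disj hdj, hc, hN3, min_eq_right e5]
        unfold dd at e8
        rw [abs_le] at e8
        omega
      · simpa using term_mono b subset_union_left m k
    rw [Finset.sum_add_distrib, Finset.sum_ite_eq, if_pos (Finset.mem_range.2 hn)] at e7
    have e9 : ∑ k ∈ Finset.range n, β.term b X m k = β.H b X m (K m) :=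
      H_stable (fun k hk => term_eq_zero (hK m k hk X subset_rfl subset_rfl)) (by omega)
    omega

theorem H_compl (b X : Set V) (m n : ℕ) : β.H bᶜ Xᶜ m n = - β.H b X m n := by
  unfold H
  rw [← Finset.sum_neg_distrib]
  refine Finset.sum_congr rfl fun k _ => ?_
  have h1 := cnt_compl (β := β) X k
  have h2 := cnt_compl (β := β) b k
  unfold term dd soft
  omega

theorem esc_down {b X I : Set V} (hX : β.Le b X) (hX' : β.Le X b) (hIX : I ⊆ X)
    (hP : ¬ β.Le X I) : ∃ Y, I ⊆ Y ∧ Y ⊆ X ∧ β.Le X Y ∧ ¬ β.Ge b 1 Y := by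
  obtain ⟨Y, h1, h2, h3, h4⟩ := esc_up hX'.compl hX.compl (compl_subset_compl.2 hIX)
    (by rwa [le_compl_iff])
  refine ⟨Yᶜ, subset_compl_comm.1 h2, compl_subset_comm.1 h1, by simpa using h3.compl, fun h => ?_⟩
  obtain ⟨m, e1, e2⟩ := (h4.and h).exists
  obtain ⟨n, e3, e4⟩ := (e1.and e2).exists
  have := H_compl (β := β) b Yᶜ m n
  rw [compl_compl] at this
  omega

/-- bases inside the class of `b`. -/
def Bas (β : Blocks V) (b X : Set V) : Prop :=
  β.Le b X ∧ β.Le X b ∧ β.Ge b 0 X ∧ ¬ β.Ge b 1 X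

theorem ivt1 {b I Z : Set V} (hb : ¬ β.Null b) (hb' : ¬ β.Null bᶜ) (hIZ : I ⊆ Z)
    (hI : β.Le I b) (hZ : β.Le b Z) :
    ∃ B, β.Bas b B ∧ (B ⊆ I ∨ Z ⊆ B ∨ (I ⊆ B ∧ B ⊆ Z)) := by
  have hc : ∀ I Z : Set V, I ⊆ Z → β.Le b I → β.Le Z b → β.Ge b 0 Z → ¬ β.Ge b 1 I →
      ∃ B, β.Bas b B ∧ I ⊆ B ∧ B ⊆ Z := by
    intro I Z h1 h2 h3 h4 h5
    obtain ⟨B, e1, e2, e3, e4⟩ := core h1 h2 h3 h4 h5
    exact ⟨B, ⟨h2.trans (Le.of_subset e1), (Le.of_subset e2).trans h3, e3, e4⟩, e1, e2⟩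
  have g10 : ∀ Y, β.Ge b 1 Y → β.Ge b 0 Y := fun Y h =>
    Eventually.mono h fun m hm => hm.mono fun n hn => by omega
  set X := I ∪ (b ∩ Z) with hXd
  have x1 : β.Le b X := ((Le.refl b).inter hZ).trans (Le.of_subset subset_union_right)
  have x2 : β.Le X b := hI.union (Le.of_subset inter_subset_left)
  have x3 : I ⊆ X := subset_union_left
  have x4 : X ⊆ Z := union_subset hIZ inter_subset_right
  have up : ∃ Z', X ⊆ Z' ∧ Z' ⊆ Z ∧ β.Le Z' X ∧ (β.Ge b 0 Z' ∨ Z' = Z) := by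
    by_cases h : β.Le Z X
    · exact ⟨Z, x4, subset_rfl, h, Or.inr rfl⟩
    · obtain ⟨Y, h1, h2, h3, h4⟩ := esc_up x1 x2 x4 h
      exact ⟨Y, h1, h2, h3, Or.inl h4⟩
  have down : ∃ I', I ⊆ I' ∧ I' ⊆ X ∧ β.Le X I' ∧ (¬ β.Ge b 1 I' ∨ I' = I) := by
    by_cases h : β.Le X I
    · exact ⟨I, subset_rfl, x3, h, Or.inr rfl⟩
    · obtain ⟨Y, h1, h2, h3, h4⟩ := esc_down x1 x2 x3 h
      exact ⟨Y, h1, h2, h3, Or.inl h4⟩
  obtain ⟨Z', z1, z2, z3, z4⟩ := up
  obtain ⟨I', i1, i2, i3, i4⟩ := down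
  by_cases gz : β.Ge b 0 Z'
  · by_cases gi : β.Ge b 1 I'
    · obtain rfl : I' = I := i4.resolve_left (not_not.2 gi)
      have y1 := x1.trans i3
      obtain ⟨Y, h1, h2, h3, h4⟩ := esc_down (I := ∅) y1 hI (empty_subset _)
        (fun h => hb (le_empty_iff.1 (y1.trans h)))
      obtain ⟨B, e1, e2, e3⟩ := hc Y I' h2 (y1.trans h3) hI (g10 _ gi) h4
      exact ⟨B, e1, Or.inl e3⟩
    · obtain ⟨B, e1, e2, e3⟩ := hc I' Z' (i2.trans z1) (x1.trans i3) (z3.trans x2) gz gi
      exact ⟨B, e1, Or.inr (Or.inr ⟨i1.trans e2, e3.trans z2⟩)⟩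
  · obtain rfl : Z' = Z := z4.resolve_left gz
    have y1 := z3.trans x2
    obtain ⟨Y, h1, h2, h3, h4⟩ := esc_up (Z := univ) hZ y1 (subset_univ _)
      (fun h => hb' (le_empty_iff.1 (by simpa using (h.trans y1).compl)))
    obtain ⟨B, e1, e2, e3⟩ := hc Z' Y h1 hZ (h3.trans y1) h4 (fun h => gz (g10 _ h))
    exact ⟨B, e1, Or.inr (Or.inl e2)⟩

theorem ivt2 {b I Z : Set V} (hb : ¬ β.Null b) (hb' : ¬ β.Null bᶜ) (hIZ : I ⊆ Z)
    (h : β.Le b I ∨ β.Le Z b ∨ (β.Le I b ∧ β.Le b Z)) :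
    ∃ B, β.Bas b B ∧ (B ⊆ I ∨ Z ⊆ B ∨ (I ⊆ B ∧ B ⊆ Z)) := by
  by_cases h1 : β.Le I b
  · by_cases h2 : β.Le b Z
    · exact ivt1 hb hb' hIZ h1 h2
    · have h3 : β.Le Z b := by
        rcases h with h | h | h
        · exact absurd (h.trans (Le.of_subset hIZ)) h2
        · exact h
        · exact absurd h.2 h2
      obtain ⟨B, e1, e2⟩ := ivt1 hb hb' (subset_univ Z) h3 (Le.of_subset (subset_univ _))
      rcases e2 with e2 | e2 | e2
      · exact absurd (e1.1.trans (Le.of_subset e2)) h2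
      · exact ⟨B, e1, Or.inr (Or.inl ((subset_univ _).trans e2))⟩
      · exact ⟨B, e1, Or.inr (Or.inl e2.1)⟩
  · have h3 : β.Le b I := by
      rcases h with h | h | h
      · exact h
      · exact absurd ((Le.of_subset hIZ).trans h) h1
      · exact absurd h.1 h1
    obtain ⟨B, e1, e2⟩ := ivt1 hb hb' (empty_subset I) (Le.of_subset (empty_subset _)) h3
    rcases e2 with e2 | e2 | e2
    · exact ⟨B, e1, Or.inl (e2.trans (empty_subset _))⟩
    · exact absurd ((Le.of_subset e2).trans e1.2.1) h1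
    · exact ⟨B, e1, Or.inl e2.2⟩

theorem Bas.exch {b B : Set V} (h : β.Bas b B) {e f : V} (he : e ∈ B) (hf : f ∉ B) :
    β.Bas b (insert f (B \ {e})) := by
  have h1 : ∀ c, β.Ge b c (insert f (B \ {e})) ↔ β.Ge b c B := by
    intro c
    have e1 := ge_insert (β := β) (b := b) (X := B \ {e}) (w := f) (fun h => hf h.1) (c - 1)
    have e2 := ge_insert (β := β) (b := b) (X := B \ {e}) (w := e) (by simp) (c - 1)
    rw [insert_sdiff_singleton, insert_eq_of_mem he] at e2
    simp only [sub_add_cancel] at e1 e2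
    rw [e1, e2]
  refine ⟨h.1.trans ((null_singleton e).mono ?_), Le.trans ((null_singleton f).mono ?_) h.2.1,
    (h1 0).2 h.2.2.1, fun h' => h.2.2.2 ((h1 1).1 h')⟩
  · intro v hv
    simp only [Set.mem_sdiff, mem_insert_iff, mem_singleton_iff] at *
    tauto
  · intro v hv
    simp only [Set.mem_sdiff, mem_insert_iff, mem_singleton_iff] at *
    tauto

theorem Bas.anti {b B B' : Set V} (h : β.Bas b B) (h' : β.Bas b B') (hs : B ⊆ B') : B = B' := by
  by_contra hne
  obtain ⟨w, hw, hw'⟩ := not_subset.1 (fun h => hne (subset_antisymm hs h))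
  have := (ge_insert hw' 0).2 h.2.2.1
  exact h'.2.2.2 (by simpa using this.mono (insert_subset hw hs))

end Blocks

end Crest.Agent.R53
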