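import Mathlib

set_option autoImplicit false

namespace Crest.Agent.R53

open Set Matroid

/-- A family of subsets closed under exchanges, an antichain, meeting every interval:
a uniform matroid. -/
theorem exists_uniform {V : Type} (Bs : Set V → Prop)
    (hex : ∀ B e f, Bs B → e ∈ B → f ∉ B → Bs (insert f (B \ {e})))
    (hanti : ∀ B B', Bs B → Bs B' → B ⊆ B' → B = B')
    (hivt : ∀ I Z : Set V, I ⊆ Z → ∃ B, Bs B ∧ (B ⊆ I ∨ Z ⊆ B ∨ (I ⊆ B ∧ B ⊆ Z))) :
    ∃ M : Matroid V, M.E = univ ∧ ∀ B, M.IsBase B ↔ Bs B := by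
  refine ⟨Matroid.ofBase univ Bs ?_ ?_ ?_ (fun _ _ => subset_univ _), rfl, fun B => Iff.rfl⟩
  · obtain ⟨B, hB, -⟩ := hivt ∅ ∅ subset_rfl
    exact ⟨B, hB⟩
  · intro X Y hX hY a ha
    by_cases h : Y ⊆ X
    · exact absurd (hanti Y X hY hX h ▸ ha.1) ha.2
    · obtain ⟨b, hb, hb'⟩ := not_subset.1 h
      exact ⟨b, ⟨hb, hb'⟩, hex X a b hX ha.1 hb'⟩
  · rintro X - I ⟨B₀, hB₀, hIB₀⟩ hIX
    have key : ∀ B, Bs B → I ⊆ B → B ⊆ X →
        ∃ J, I ⊆ J ∧ Maximal (fun K ↦ (∃ B, Bs B ∧ K ⊆ B) ∧ K ⊆ X) J := by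
      intro B hB hIB hBX
      refine ⟨B, hIB, ⟨⟨B, hB, subset_rfl⟩, hBX⟩, ?_⟩
      rintro K ⟨⟨B', hB', hKB'⟩, -⟩ hBK
      have := hanti B B' hB hB' (Set.Subset.trans hBK hKB')
      exact this ▸ hKB'
    obtain ⟨B, hB, h | h | h⟩ := hivt I X hIX
    · have := hanti B B₀ hB hB₀ (h.trans hIB₀)
      exact key B hB (this ▸ hIB₀) (h.trans hIX)
    · exact ⟨X, hIX, ⟨⟨B, hB, h⟩, subset_rfl⟩, fun K hK _ => hK.2⟩
    · exact key B hB h.1 h.2

theorem dual_eq_of_compl {V : Type} (M : Matroid V) (hE : M.E = univ)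
    (h : ∀ B, M.IsBase B → M.IsBase Bᶜ) : M.dual = M := by
  refine ext_isBase rfl (fun B hB => ?_)
  rw [dual_isBase_iff (by simp [hE]), hE, ← compl_eq_univ_sdiff]
  exact ⟨fun h' => by simpa using h _ h', h B⟩

theorem indep_of_pc {V : Type} (M : Matroid V) (hE : M.E = univ) (hd : M.dual = M)
    (P C S I : Set V) (hPC : P ∪ C = univ) (hdj : Disjoint P C) (hS : S ⊆ P)
    (hcl : (M.restrict P).closure S = P) (hI : I ⊆ C) (hind : (M.contract Cᶜ).Indep I) :
    M.Indep ((P \ S) ∪ I) := by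
  have hCP : Cᶜ = P := by
    ext x
    have h1 : x ∈ P ∪ C := hPC ▸ mem_univ x
    have h2 : x ∈ P → x ∉ C := fun h => Set.disjoint_left.1 hdj h
    simp only [mem_compl_iff, mem_union] at *
    tauto
  have h1 : P ⊆ M.closure S := by
    rw [restrict_closure_eq M hS (by simp [hE])] at hcl
    exact hcl ▸ inter_subset_left
  have h2 : C ⊆ M.closure (C \ I) := by
    have hc : (M.delete Cᶜ).Coindep I := by
      rw [coindep_def, dual_delete, hd]; exact hind
    have hs := hc.compl_spanning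
    have hg : (M.delete Cᶜ).E = C := by simp [hE]
    rw [hg, spanning_iff_closure_eq (by rw [hg]; exact sdiff_subset), hg, delete_closure_eq] at hs
    intro x hx
    rw [← hs] at hx
    exact M.closure_subset_closure sdiff_subset hx.1
  have h3 : M.Spanning (S ∪ (C \ I)) := by
    rw [spanning_iff_ground_subset_closure (by simp [hE]), hE, ← hPC]
    exact union_subset (h1.trans (M.closure_subset_closure subset_union_left))
      (h2.trans (M.closure_subset_closure subset_union_right))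
  have h4 := h3.compl_coindep
  rw [coindep_def, hd] at h4
  refine h4.subset ?_
  intro x hx
  have h2 : x ∈ P → x ∉ C := fun h => Set.disjoint_left.1 hdj h
  have h5 := @hS x
  have h6 := @hI x
  simp only [hE, mem_union, Set.mem_sdiff, mem_univ, true_and] at *
  tauto

end Crest.Agent.R53
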