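import Crest.Agent.R53.Top
import Crest.Agent.R53.Level
import Crest.Agent.R53.PC

set_option autoImplicit false

namespace Crest.Agent.R53

open Set Blocks Sum Filter

noncomputable def βV : Blocks (Bool × Om) where
  Q k := Finset.univ ×ˢ βO.Q k
  blk p := βO.blk p.2
  mem := by
    intro p k
    simp [βO.mem]
  q := βO.q
  hq := βO.hq

def side (b : Bool) (X : Set (Bool × Om)) : Set Om := {ω | (b, ω) ∈ X}

def pr (u v : Set Om) : Set (Bool × Om) := {p | if p.1 then p.2 ∈ v else p.2 ∈ u}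

@[simp] theorem side_pr_false (u v : Set Om) : side false (pr u v) = u := by
  ext; simp [side, pr]

@[simp] theorem side_pr_true (u v : Set Om) : side true (pr u v) = v := by
  ext; simp [side, pr]

@[simp] theorem side_compl (b : Bool) (X : Set (Bool × Om)) : side b Xᶜ = (side b X)ᶜ := rfl

theorem side_mono (b : Bool) {X Y : Set (Bool × Om)} (h : X ⊆ Y) : side b X ⊆ side b Y :=
  fun _ hω => h hω

theorem cntV (X : Set (Bool × Om)) (k : ℕ) :
    βV.cnt X k = βO.cnt (side false X) k + βO.cnt (side true X) k := by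
  classical
  unfold Blocks.cnt βV
  simp only [Finset.card_filter, Finset.sum_product, Fintype.sum_bool]
  rw [add_comm]
  rfl

theorem nullV {X : Set (Bool × Om)} :
    βV.Null X ↔ βO.Null (side false X) ∧ βO.Null (side true X) := by
  constructor
  · intro h
    constructor <;> intro m <;> filter_upwards [h m] with k hk <;> rw [cntV] at hk <;>
      exact le_trans (Nat.mul_le_mul_left _ (by omega)) hk
  · rintro ⟨h1, h2⟩ m
    filter_upwards [h1 (2 * m), h2 (2 * m)] with k e1 e2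
    rw [cntV]
    change _ ≤ βO.q k
    nlinarith

theorem leV {X Y : Set (Bool × Om)} : βV.Le X Y ↔
    βO.Le (side false X) (side false Y) ∧ βO.Le (side true X) (side true Y) := nullV

theorem exists_U : ∃ U : Matroid (Bool × Om), U.E = univ ∧ (∀ B, U.IsBase B → U.IsBase Bᶜ) ∧
    ∃ L : Set Om → Lam → Prop, (∀ x, ∃ r, L x r ∨ L xᶜ r) ∧
      (∀ x y r, L x r → x ⊆ y → L y r) ∧
      ∀ X r, U.Indep X → L (side false X) r → ∃ r' < r, L (side true X)ᶜ r' := by
  obtain ⟨S, hS, hdec, hhit⟩ := exists_top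
  let Bs : Set (Bool × Om) → Prop := fun X =>
    ∃ u v r, inr (u, v, r) ∈ S ∧ (βV.Bas (pr u v) X ∨ βV.Bas (pr u v) Xᶜ)
  have hn : ∀ u v r, inr (u, v, r) ∈ S → ¬ βV.Null (pr u v) ∧ ¬ βV.Null (pr u v)ᶜ := by
    intro u v r e
    obtain ⟨e1, r₁, e2⟩ := hS.bgen _ _ _ e
    exact ⟨fun h => hS.not_null e2 (by simpa using (nullV.1 h).1),
      fun h => hS.not_null e1 (by simpa using (nullV.1 h).2)⟩
  have hsame : ∀ u v r u' v' r' B B', inr (u, v, r) ∈ S → inr (u', v', r') ∈ S →
      βV.Bas (pr u v) B → βV.Bas (pr u' v') B' → B ⊆ B' → B = B' := by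
    intro u v r u' v' r' B B' e e' h h' hs
    have := leV.1 ((h.1.trans (Le.of_subset hs)).trans h'.2.1)
    simp only [side_pr_false, side_pr_true] at this
    obtain ⟨rfl, rfl⟩ := hS.anti _ _ _ _ _ _ e e' this.1 this.2
    exact h.anti h' hs
  obtain ⟨U, hE, hU⟩ := exists_uniform Bs
    (by
      rintro B e f ⟨u, v, r, h1, h2 | h2⟩ he hf
      · exact ⟨u, v, r, h1, Or.inl (h2.exch he hf)⟩
      · refine ⟨u, v, r, h1, Or.inr ?_⟩
        have := h2.exch (e := f) (f := e) hf (by simpa using he)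
        convert this using 1
        ext p
        have : p = e → p = f → False := fun a b => hf (b ▸ a ▸ he)
        simp only [mem_compl_iff, mem_insert_iff, Set.mem_sdiff, mem_singleton_iff]
        tauto)
    (by
      rintro B B' ⟨u, v, r, h1, h2 | h2⟩ ⟨u', v', r', h1', h2' | h2'⟩ hs
      · exact hsame _ _ _ _ _ _ _ _ h1 h1' h2 h2' hs
      · have := leV.1 ((h2.1.trans (Le.of_subset hs)).trans
          (by simpa using h2'.1.compl : βV.Le B' (pr u' v')ᶜ))
        obtain ⟨r₁, e1⟩ := (hS.bgen _ _ _ h1).2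
        obtain ⟨r₂, e2⟩ := (hS.bgen _ _ _ h1').2
        exact absurd (by simpa using this.1) (hS.link _ _ _ _ e1 e2)
      · have := leV.1 (((by simpa using h2.2.1.compl : βV.Le (pr u v)ᶜ B).trans
          (Le.of_subset hs)).trans h2'.2.1)
        exact absurd (by simpa using this.2)
          (hS.link _ _ _ _ (hS.bgen _ _ _ h1).1 (hS.bgen _ _ _ h1').1)
      · exact compl_injective
          (hsame _ _ _ _ _ _ _ _ h1' h1 h2' h2 (compl_subset_compl.2 hs)).symm)
    (by
      intro I Z hIZ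
      obtain ⟨u, v, r, h1, h2 | h2⟩ := hhit _ _ _ _ (side_mono false hIZ) (side_mono true hIZ)
      · obtain ⟨B, e1, e2⟩ := ivt2 (hn _ _ _ h1).1 (hn _ _ _ h1).2 hIZ
          (by simpa [leV, Pos] using h2)
        exact ⟨B, ⟨u, v, r, h1, Or.inl e1⟩, e2⟩
      · obtain ⟨B, e1, e2⟩ := ivt2 (hn _ _ _ h1).1 (hn _ _ _ h1).2 (compl_subset_compl.2 hIZ)
          (by
            have := Pos.of_compl (a := uᶜ) (b := vᶜ) (x := (side false Z)ᶜ) (y := (side true Z)ᶜ)
              (x' := (side false I)ᶜ) (y' := (side true I)ᶜ) (by simpa using h2)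
            simpa [leV, Pos] using this)
        refine ⟨Bᶜ, ⟨u, v, r, h1, Or.inr (by simpa using e1)⟩, ?_⟩
        rcases e2 with e2 | e2 | e2
        · exact Or.inr (Or.inl (subset_compl_comm.1 e2))
        · exact Or.inl (compl_subset_comm.1 e2)
        · exact Or.inr (Or.inr ⟨subset_compl_comm.1 e2.2, compl_subset_comm.1 e2.1⟩))
  refine ⟨U, hE, ?_, fun x r => ∃ g, inl (g, r) ∈ S ∧ βO.Le g x, ?_, ?_, ?_⟩
  · intro B hB
    obtain ⟨u, v, r, h1, h2⟩ := (hU B).1 hB
    exact (hU _).2 ⟨u, v, r, h1, by simpa using h2.symm⟩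
  · intro x
    rcases hdec x with ⟨g, r, h⟩ | ⟨g, r, h⟩
    · exact ⟨r, Or.inl ⟨g, h⟩⟩
    · exact ⟨r, Or.inr ⟨g, h⟩⟩
  · rintro x y r ⟨g, h1, h2⟩ h
    exact ⟨g, h1, h2.trans (Le.of_subset h)⟩
  · rintro X r hX ⟨g, h1, h2⟩
    obtain ⟨B, hB, hXB⟩ := hX.exists_isBase_superset
    obtain ⟨u, v, r₀, e1, e2 | e2⟩ := (hU B).1 hB
    · have := leV.1 ((Le.of_subset hXB).trans e2.2.1)
      simp only [side_pr_false, side_pr_true] at this
      refine ⟨r₀, ?_, vᶜ, (hS.bgen _ _ _ e1).1, this.2.compl⟩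
      by_contra hr
      exact hS.prom _ _ _ _ _ e1 h1 (not_lt.1 hr) (h2.trans this.1)
    · have := leV.1 ((Le.of_subset hXB).trans
        (by simpa using e2.1.compl : βV.Le B (pr u v)ᶜ))
      obtain ⟨r₁, e3⟩ := (hS.bgen _ _ _ e1).2
      exact absurd (h2.trans (by simpa using this.1)) (hS.link _ _ _ _ h1 e3)

/-- the class attached to side `b` of vertex `n` of the double ray. -/
def cls (n : ℤ) (b : Bool) : ℤ :=
  if 1 ≤ n then (if b then n else n - 1) else (if b then n - 1 else n)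

theorem cls_bij (i : ℤ) : Function.Bijective (fun p : ℤ × Bool => cls (2 * p.1 + i) p.2) := by
  constructor
  · rintro ⟨j, b⟩ ⟨j', b'⟩ h
    cases b <;> cases b' <;> simp only [cls, Bool.false_eq_true, if_false, if_true] at h <;>
      split_ifs at h <;> first | omega | (simp only [Prod.mk.injEq, and_true]; omega)
  · intro c
    by_cases h : (c - i) % 2 = 0
    · refine ⟨((c - i) / 2, decide (1 ≤ c)), ?_⟩
      have : 2 * ((c - i) / 2) + i = c := by omega
      simp only [this, cls]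
      split_ifs <;> simp_all
      omega
    · refine ⟨((c + 1 - i) / 2, decide (c + 1 < 1)), ?_⟩
      have : 2 * ((c + 1 - i) / 2) + i = c + 1 := by omega
      simp only [this, cls]
      split_ifs <;> simp_all <;> omega

theorem exists_pair : ∃ M₀ M₁ : Matroid ℕ, M₀.E = univ ∧ M₁.E = univ ∧ M₀.dual = M₀ ∧
    M₁.dual = M₁ ∧ ∀ I₀ I₁ : Set ℕ, M₀.Indep I₀ → M₁.Indep I₁ → I₀ ∪ I₁ ≠ univ := by
  obtain ⟨U, hE, hc, L, h1, h2, h3⟩ := exists_U
  obtain ⟨enc⟩ : Nonempty (ℤ × Om ≃ ℕ) := by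
    have : Nonempty Om := ⟨⟨0, fun _ => true⟩⟩
    exact nonempty_equiv_of_countable
  let e : ℤ → (ℤ × (Bool × Om) ≃ ℕ) := fun i =>
    ((Equiv.prodAssoc ℤ Bool Om).symm.trans
      (Equiv.prodCongr (Equiv.ofBijective _ (cls_bij i)) (Equiv.refl _))).trans enc
  have he : ∀ i j p, e i (j, p) = enc (cls (2 * j + i) p.1, p.2) := fun _ _ _ => rfl
  let M : ℤ → Matroid ℕ := fun i => (Matroid.sum' fun _ : ℤ => U).mapEquiv (e i)
  have hME : ∀ i, (M i).E = univ := by
    intro i
    simp only [M, Matroid.mapEquiv_ground_eq, Matroid.sum'_ground_eq, hE]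
    rw [eq_univ_iff_forall]
    intro n
    exact ⟨(e i).symm n, mem_iUnion.2 ⟨((e i).symm n).1, ((e i).symm n).2, trivial, rfl⟩, by simp⟩
  have hMd : ∀ i, (M i).dual = M i := by
    intro i
    refine dual_eq_of_compl _ (hME i) fun B hB => ?_
    simp only [M, Matroid.mapEquiv_isBase_iff, Matroid.sum'_isBase_iff] at hB ⊢
    intro j
    convert hc _ (hB j) using 1
    rw [Equiv.image_compl]
    rfl
  have hMi : ∀ i I, (M i).Indep I → ∀ j,
      U.Indep {p | enc (cls (2 * j + i) p.1, p.2) ∈ I} := by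
    intro i I hI j
    simp only [M, Matroid.mapEquiv_indep_iff, Matroid.sum'_indep_iff] at hI
    convert hI j using 1
    rw [Equiv.image_symm_eq_preimage]
    rfl
  refine ⟨M 0, M 1, hME 0, hME 1, hMd 0, hMd 1, fun I₀ I₁ hI₀ hI₁ hcov => ?_⟩
  let ι : ℤ → Set ℕ := fun n => if n % 2 = 0 then I₀ else I₁
  let X : ℤ → Set (Bool × Om) := fun n => {p | enc (cls n p.1, p.2) ∈ ι n}
  have hX : ∀ n, U.Indep (X n) := by
    intro n
    by_cases h : n % 2 = 0
    · have := hMi 0 I₀ hI₀ (n / 2)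
      rw [show 2 * (n / 2) + 0 = n by omega] at this
      simpa only [X, ι, if_pos h] using this
    · have := hMi 1 I₁ hI₁ (n / 2)
      rw [show 2 * (n / 2) + 1 = n by omega] at this
      simpa only [X, ι, if_neg h] using this
  have hι : ∀ n n' : ℤ, (n' = n + 1 ∨ n' = n - 1) → ∀ a, a ∉ ι n → a ∈ ι n' := by
    intro n n' hn a ha
    have hm : a ∈ I₀ ∪ I₁ := hcov ▸ mem_univ a
    simp only [ι] at ha ⊢
    by_cases h : n % 2 = 0
    · rw [if_pos h] at ha
      rw [if_neg (by omega)]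
      exact hm.resolve_left ha
    · rw [if_neg h] at ha
      rw [if_pos (by omega)]
      exact hm.resolve_right ha
  have key : ∀ r n, ¬ L (side false (X n)) r := by
    intro r
    induction r using WellFoundedLT.induction with
    | ind r ih =>
      intro n hL
      obtain ⟨r', hr, hL'⟩ := h3 _ _ (hX n) hL
      refine ih r' hr (if 1 ≤ n then n + 1 else n - 1) (h2 _ _ _ hL' fun ω hω => ?_)
      have e1 : cls (if 1 ≤ n then n + 1 else n - 1) false = cls n true := by
        simp only [cls, Bool.false_eq_true, if_false, if_true]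
        split_ifs <;> omega
      change enc (cls _ false, ω) ∈ ι _
      rw [e1]
      exact hι n _ (by split_ifs <;> simp) _ hω
  obtain ⟨r, h | h⟩ := h1 (side false (X 0))
  · exact key r 0 h
  · exact key r 1 (h2 _ _ _ h fun ω hω => hι 0 1 (by simp) _ hω)

end Crest.Agent.R53
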