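import Mathlib

set_option autoImplicit false

namespace Crest.Agent.R53

open Set Filter

/-- A partition of `V` into finite blocks with a normalising sequence. -/
structure Blocks (V : Type) where
  Q : ℕ → Finset V
  blk : V → ℕ
  mem : ∀ v k, v ∈ Q k ↔ blk v = k
  q : ℕ → ℕ
  hq : Tendsto q atTop atTop

namespace Blocks

variable {V : Type} (β : Blocks V)

open Classical in
/-- number of points of `X` in block `k`. -/
noncomputable def cnt (X : Set V) (k : ℕ) : ℕ := ((β.Q k).filter (· ∈ X)).card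

/-- the block density zero ideal. -/
def Null (X : Set V) : Prop := ∀ m : ℕ, ∀ᶠ k in atTop, m * β.cnt X k ≤ β.q k

variable {β}

theorem cnt_mono {X Y : Set V} (h : X ⊆ Y) (k : ℕ) : β.cnt X k ≤ β.cnt Y k := by
  classical
  unfold cnt
  apply Finset.card_le_card
  intro v hv
  simp only [Finset.mem_filter] at *
  exact ⟨hv.1, h hv.2⟩

theorem cnt_congr {X Y : Set V} {k : ℕ} (h : ∀ v, β.blk v = k → (v ∈ X ↔ v ∈ Y)) :
    β.cnt X k = β.cnt Y k := by
  classical
  unfold cnt
  congr 1
  ext v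
  simp only [Finset.mem_filter, β.mem]
  exact ⟨fun ⟨h1, h2⟩ => ⟨h1, (h v h1).1 h2⟩, fun ⟨h1, h2⟩ => ⟨h1, (h v h1).2 h2⟩⟩

theorem cnt_union_add_inter (X Y : Set V) (k : ℕ) :
    β.cnt (X ∪ Y) k + β.cnt (X ∩ Y) k = β.cnt X k + β.cnt Y k := by
  classical
  unfold cnt
  rw [← Finset.card_union_add_card_inter ((β.Q k).filter (· ∈ X))]
  congr 1
  · congr 1; ext v; simp only [Finset.mem_filter, Finset.mem_union, mem_union]; tauto
  · congr 1; ext v; simp only [Finset.mem_filter, Finset.mem_inter, mem_inter_iff]; tauto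

theorem cnt_empty (k : ℕ) : β.cnt ∅ k = 0 := by
  classical
  unfold cnt
  simp

theorem cnt_union_le (X Y : Set V) (k : ℕ) : β.cnt (X ∪ Y) k ≤ β.cnt X k + β.cnt Y k := by
  have := cnt_union_add_inter (β := β) X Y k
  omega

theorem cnt_union_disj {X Y : Set V} (h : Disjoint X Y) (k : ℕ) :
    β.cnt (X ∪ Y) k = β.cnt X k + β.cnt Y k := by
  have := cnt_union_add_inter (β := β) X Y k
  rw [h.inter_eq, cnt_empty] at this
  omega

theorem cnt_compl (X : Set V) (k : ℕ) : β.cnt X k + β.cnt Xᶜ k = β.cnt univ k := by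
  rw [← cnt_union_disj disjoint_compl_right, union_compl_self]

theorem cnt_le_diff (X Y : Set V) (k : ℕ) : β.cnt X k ≤ β.cnt Y k + β.cnt (X \ Y) k :=
  (cnt_mono (by intro v hv; by_cases h : v ∈ Y <;> simp [h, hv]) k).trans (cnt_union_le _ _ k)

theorem cnt_singleton (w : V) (k : ℕ) : β.cnt {w} k = if β.blk w = k then 1 else 0 := by
  classical
  unfold cnt
  split_ifs with h
  · rw [Finset.card_eq_one]
    refine ⟨w, ?_⟩
    ext v
    simp only [Finset.mem_filter, β.mem, mem_singleton_iff, Finset.mem_singleton]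
    exact ⟨fun h => h.2, fun h' => ⟨h' ▸ h, h'⟩⟩
  · rw [Finset.card_eq_zero]
    ext v
    simp only [Finset.mem_filter, β.mem, mem_singleton_iff, Finset.notMem_empty, iff_false]
    rintro ⟨h1, rfl⟩
    exact h h1

theorem cnt_insert {X : Set V} {w : V} (hw : w ∉ X) (k : ℕ) :
    β.cnt (insert w X) k = β.cnt X k + if β.blk w = k then 1 else 0 := by
  rw [← cnt_singleton, ← cnt_union_disj (by simpa using hw), union_singleton]

theorem exists_subset_cnt (P : Set V) (k n : ℕ) (h : n ≤ β.cnt P k) :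
    ∃ N ⊆ P, (∀ v ∈ N, β.blk v = k) ∧ β.cnt N k = n := by
  classical
  unfold cnt at h
  obtain ⟨T, hT, hc⟩ := Finset.exists_subset_card_eq h
  refine ⟨T, fun v hv => (Finset.mem_filter.1 (hT hv)).2,
    fun v hv => (β.mem v k).1 (Finset.mem_filter.1 (hT hv)).1, ?_⟩
  unfold cnt
  rw [← hc]
  congr 1
  ext v
  simp only [Finset.mem_filter, Finset.mem_coe]
  exact ⟨fun h => h.2, fun h => ⟨(Finset.mem_filter.1 (hT h)).1, h⟩⟩

theorem Null.mono {X Y : Set V} (hY : β.Null Y) (h : X ⊆ Y) : β.Null X := fun m =>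
  (hY m).mono fun k hk => (Nat.mul_le_mul_left m (cnt_mono h k)).trans hk

theorem null_empty : β.Null ∅ := fun m => Eventually.of_forall fun k => by simp [cnt_empty]

theorem Null.union {X Y : Set V} (hX : β.Null X) (hY : β.Null Y) : β.Null (X ∪ Y) := fun m => by
  filter_upwards [hX (2 * m), hY (2 * m)] with k h1 h2
  have := Nat.mul_le_mul_left m (cnt_union_le (β := β) X Y k)
  nlinarith

theorem null_singleton (w : V) : β.Null {w} := fun m => by
  filter_upwards [eventually_gt_atTop (β.blk w)] with k hk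
  rw [cnt_singleton, if_neg hk.ne]
  simp

theorem Null.biUnion {ι : Type} (T : Finset ι) (f : ι → Set V) (h : ∀ i ∈ T, β.Null (f i)) :
    β.Null (⋃ i ∈ T, f i) := by
  classical
  induction T using Finset.induction_on with
  | empty => simpa using null_empty
  | insert a T ha ih =>
    rw [Finset.set_biUnion_insert]
    exact (h a (by simp)).union (ih fun i hi => h i (by simp [hi]))

/-- inclusion modulo the null ideal -/
def Le (β : Blocks V) (X Y : Set V) : Prop := β.Null (X \ Y)

theorem Le.of_subset {X Y : Set V} (h : X ⊆ Y) : β.Le X Y := by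
  unfold Le
  rw [sdiff_eq_empty.2 h]; exact null_empty

theorem Le.refl (X : Set V) : β.Le X X := Le.of_subset subset_rfl

theorem Le.trans {X Y Z : Set V} (h1 : β.Le X Y) (h2 : β.Le Y Z) : β.Le X Z :=
  (Null.union h1 h2).mono (by intro v hv; by_cases h : v ∈ Y <;> simp_all)

theorem Le.compl {X Y : Set V} (h : β.Le X Y) : β.Le Yᶜ Xᶜ :=
  Null.mono h (by intro v hv; simp_all)

theorem le_compl_iff {X Y : Set V} : β.Le Yᶜ Xᶜ ↔ β.Le X Y :=
  ⟨fun h => by simpa using h.compl, Le.compl⟩

theorem Le.union {X Y Z : Set V} (h1 : β.Le X Z) (h2 : β.Le Y Z) : β.Le (X ∪ Y) Z :=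
  (Null.union h1 h2).mono (by intro v hv; simp only [Set.mem_sdiff, mem_union] at *; tauto)

theorem Le.inter {X Y Z : Set V} (h1 : β.Le X Y) (h2 : β.Le X Z) : β.Le X (Y ∩ Z) :=
  (Null.union h1 h2).mono (by
    intro v hv; simp only [Set.mem_sdiff, mem_union, mem_inter_iff] at *; tauto)

theorem Null.le {X : Set V} (h : β.Null X) (Y : Set V) : β.Le X Y := h.mono sdiff_subset

theorem le_empty_iff {X : Set V} : β.Le X ∅ ↔ β.Null X := by simp [Le]

end Blocks

end Crest.Agent.R53
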