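import Crest.Agent.R53.Null

set_option autoImplicit false

namespace Crest.Agent.R53

open Set Filter Cardinal Blocks

theorem mk_biUnion_lt {ι α : Type} (s : Set ι) (f : ι → Set α) (hs : #s < 𝔠)
    (hf : ∀ i ∈ s, (f i).Finite) : #(⋃ i ∈ s, f i) < 𝔠 := by
  refine (mk_biUnion_le f s).trans_lt (mul_lt_of_lt aleph0_le_continuum hs ?_)
  refine lt_of_le_of_lt (ciSup_le' fun i => ?_) aleph0_lt_continuum
  exact (hf i i.2).lt_aleph0.le

abbrev Om : Type := Σ k : ℕ, ((Fin k → Bool) → Bool)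

noncomputable def βO : Blocks Om where
  Q k := Finset.univ.map (Function.Embedding.sigmaMk k)
  blk := Sigma.fst
  mem := by
    rintro ⟨j, φ⟩ k
    simp only [Finset.mem_map, Finset.mem_univ, true_and]
    constructor
    · rintro ⟨ψ, h⟩
      exact (congrArg Sigma.fst h).symm
    · rintro rfl
      exact ⟨φ, rfl⟩
  q k := 2 ^ 2 ^ k
  hq := tendsto_atTop_mono (fun k => (Nat.lt_two_pow_self.trans Nat.lt_two_pow_self).le)
    tendsto_id

open Classical in
theorem cnt_eq (X : Set Om) (k : ℕ) :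
    βO.cnt X k = (Finset.univ.filter
      (fun φ : (Fin k → Bool) → Bool => (⟨k, φ⟩ : Om) ∈ X)).card := by
  unfold Blocks.cnt βO
  simp only
  rw [Finset.filter_map, Finset.card_map]
  congr 1

theorem not_null_univ : ¬ βO.Null univ := by
  intro h
  obtain ⟨k, hk⟩ := (h 2).exists
  rw [cnt_eq] at hk
  simp [βO] at hk

def R (s : ℕ → Bool) : Set Om := {ω | ω.2 (fun i => s i) = true}

theorem cnt_pattern (T : Finset (ℕ → Bool)) (c : (ℕ → Bool) → Bool) (k : ℕ)
    (hinj : InjOn (fun (s : ℕ → Bool) (i : Fin k) => s i) T) :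
    2 ^ T.card * βO.cnt {ω | ∀ s ∈ T, ω.2 (fun i => s i) = c s} k ≤ βO.q k := by
  classical
  set A : Finset (Fin k → Bool) := T.image (fun (s : ℕ → Bool) (i : Fin k) => s i) with hA
  have hc : A.card = T.card := Finset.card_image_of_injOn hinj
  have h1 : βO.cnt {ω | ∀ s ∈ T, ω.2 (fun i => s i) = c s} k ≤
      (Finset.univ : Finset ({a // a ∉ A} → Bool)).card := by
    rw [cnt_eq]
    refine Finset.card_le_card_of_injOn (fun φ a => φ a.1) (by simp) ?_
    intro φ hφ ψ hψ h
    simp only [mem_ofPred_eq, Finset.coe_filter, Finset.mem_univ, true_and] at hφ hψ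
    funext a
    by_cases ha : a ∈ A
    · obtain ⟨s, hs, rfl⟩ := Finset.mem_image.1 ha
      rw [hφ s hs, hψ s hs]
    · exact congrFun h ⟨a, ha⟩
  have h2 : (Finset.univ : Finset ({a // a ∉ A} → Bool)).card = 2 ^ (2 ^ k - T.card) := by
    simp [Fintype.card_subtype_compl, hc]
  have h3 : T.card ≤ 2 ^ k := by
    rw [← hc]
    simpa using A.card_le_univ
  calc _ ≤ 2 ^ T.card * 2 ^ (2 ^ k - T.card) := Nat.mul_le_mul_left _ (h1.trans h2.le)
    _ = _ := by rw [← pow_add, Nat.add_sub_cancel' h3]; rfl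

theorem finite_bad (F : Set Om) :
    {s | ¬ βO.Null F ∧ (βO.Null (F ∩ R s) ∨ βO.Null (F \ R s))}.Finite := by
  classical
  by_cases hF : βO.Null F
  · simp [hF]
  by_contra hinf
  have hF' := hF
  unfold Null at hF'
  push Not at hF'
  obtain ⟨m0, hm0⟩ := hF'
  obtain ⟨T, hT, hc⟩ := Set.Infinite.exists_subset_card_eq hinf (2 * m0)
  let c : (ℕ → Bool) → Bool := fun s => decide (βO.Null (F \ R s))
  let N : (ℕ → Bool) → Set Om := fun s => if βO.Null (F \ R s) then F \ R s else F ∩ R s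
  have hN : βO.Null (⋃ s ∈ T, N s) := by
    refine Null.biUnion T N fun s hs => ?_
    simp only [N]
    split_ifs with h
    · exact h
    · exact (hT hs).2.resolve_right h
  have hsub : F ⊆ {ω | ∀ s ∈ T, ω.2 (fun i => s i) = c s} ∪ ⋃ s ∈ T, N s := by
    intro ω hω
    by_contra h
    simp only [mem_union, mem_ofPred_eq, mem_iUnion, not_or, not_forall, not_exists] at h
    obtain ⟨⟨s, hs, h1⟩, h2⟩ := h
    apply h2 s hs
    simp only [N, c] at *
    split_ifs with h
    · rw [decide_eq_true h] at h1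
      exact ⟨hω, h1⟩
    · rw [decide_eq_false h] at h1
      exact ⟨hω, by simpa [R] using h1⟩
  have hinj : ∀ᶠ k in atTop, InjOn (fun (s : ℕ → Bool) (i : Fin k) => s i) T := by
    have : ∀ᶠ k in atTop, ∀ s ∈ T, ∀ s' ∈ T,
        (fun (i : Fin k) => s i) = (fun (i : Fin k) => s' i) → s = s' := by
      rw [eventually_all_finset]
      intro s _
      rw [eventually_all_finset]
      intro s' _
      by_cases h : s = s'
      · exact Eventually.of_forall fun _ _ => h
      · obtain ⟨i, hi⟩ := Function.ne_iff.1 h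
        filter_upwards [eventually_gt_atTop i] with k hk h'
        exact absurd (congrFun h' ⟨i, hk⟩) hi
    exact this.mono fun k hk s hs s' hs' h => hk s hs s' hs' h
  obtain ⟨k, h1, h2, h3⟩ := (hm0.and_eventually (hinj.and (hN (2 * m0)))).exists
  have h4 := cnt_pattern T c k h2
  have h5 := (cnt_mono (β := βO) hsub k).trans (cnt_union_le _ _ k)
  have h6 : 2 * m0 ≤ 2 ^ T.card := hc ▸ Nat.lt_two_pow_self.le
  have h7 := (Nat.mul_le_mul_right _ h6).trans h4
  have h8 := Nat.mul_le_mul_left m0 h5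
  nlinarith

theorem generic (𝓕 : Set (Set Om)) (h : #𝓕 < 𝔠) {x x' : Set Om} (hx : x ⊆ x') :
    ∃ u, x ⊆ u ∧ u ⊆ x' ∧ ∀ p ∈ 𝓕, (βO.Le u p → βO.Le x' p) ∧ (βO.Le p u → βO.Le p x) := by
  let bad : Set Om → Set (ℕ → Bool) := fun F =>
    {s | ¬ βO.Null F ∧ (βO.Null (F ∩ R s) ∨ βO.Null (F \ R s))}
  have h1 := mk_biUnion_lt 𝓕 (fun p => bad ((x' \ x) \ p) ∪ bad (p ∩ (x' \ x))) h
    (fun p _ => (finite_bad _).union (finite_bad _))
  have h2 : ∃ s, s ∉ ⋃ p ∈ 𝓕, (bad ((x' \ x) \ p) ∪ bad (p ∩ (x' \ x))) := by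
    by_contra hc
    push Not at hc
    rw [eq_univ_of_forall hc] at h1
    simp at h1
  obtain ⟨s, hs⟩ := h2
  simp only [mem_iUnion, not_exists, mem_union, not_or, bad, mem_ofPred_eq, not_and]
    at hs
  refine ⟨x ∪ (x' ∩ R s), subset_union_left, union_subset hx inter_subset_left,
    fun p hp => ⟨fun hu => ?_, fun hu => ?_⟩⟩
  · have e1 : βO.Null ((x' \ x) \ p) := by
      by_contra hn
      refine ((hs p hp).1 hn).1 (Null.mono hu ?_)
      intro v hv
      simp only [Set.mem_sdiff, mem_union, mem_inter_iff] at *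
      tauto
    refine (Null.union e1 hu).mono ?_
    intro v hv
    simp only [Set.mem_sdiff, mem_union, mem_inter_iff] at *
    tauto
  · have e1 : βO.Null (p ∩ (x' \ x)) := by
      by_contra hn
      refine ((hs p hp).2 hn).2 (Null.mono hu ?_)
      intro v hv
      simp only [Set.mem_sdiff, mem_union, mem_inter_iff] at *
      tauto
    refine (Null.union e1 hu).mono ?_
    intro v hv
    simp only [Set.mem_sdiff, mem_union, mem_inter_iff] at *
    tauto

end Crest.Agent.R53
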