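import Crest.Agent.R53.Trans

set_option autoImplicit false

namespace Crest.Agent.R53

open Set Cardinal Blocks Sum

abbrev Item : Type := (Set Om × Lam) ⊕ (Set Om × Set Om × Lam)

structure Good (S : Set Item) : Prop where
  link : ∀ g r g' r', inl (g, r) ∈ S → inl (g', r') ∈ S → ¬ βO.Le g g'ᶜ
  bgen : ∀ u v r, inr (u, v, r) ∈ S → inl (vᶜ, r) ∈ S ∧ ∃ r₁, inl (u, r₁) ∈ S
  prom : ∀ u v r g r', inr (u, v, r) ∈ S → inl (g, r') ∈ S → r' ≤ r → ¬ βO.Le g u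
  anti : ∀ u v r u' v' r', inr (u, v, r) ∈ S → inr (u', v', r') ∈ S → βO.Le u u' → βO.Le v v' →
    u = u' ∧ v = v'

theorem good_fin (S : Set Item)
    (h : ∀ a ∈ S, ∀ b ∈ S, ∃ S', S' ⊆ S ∧ Good S' ∧ a ∈ S' ∧ b ∈ S') : Good S where
  link g r g' r' h1 h2 := by
    obtain ⟨S', -, e, e1, e2⟩ := h _ h1 _ h2
    exact e.link _ _ _ _ e1 e2
  bgen u v r h1 := by
    obtain ⟨S', e0, e, e1, -⟩ := h _ h1 _ h1
    obtain ⟨e3, r₁, e4⟩ := e.bgen _ _ _ e1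
    exact ⟨e0 e3, r₁, e0 e4⟩
  prom u v r g r' h1 h2 := by
    obtain ⟨S', -, e, e1, e2⟩ := h _ h1 _ h2
    exact e.prom _ _ _ _ _ e1 e2
  anti u v r u' v' r' h1 h2 := by
    obtain ⟨S', -, e, e1, e2⟩ := h _ h1 _ h2
    exact e.anti _ _ _ _ _ _ e1 e2

theorem le_compl_comm {x y : Set Om} : βO.Le x yᶜ ↔ βO.Le y xᶜ := by
  rw [← le_compl_iff, compl_compl]

theorem compl_le_comm {x y : Set Om} : βO.Le xᶜ y ↔ βO.Le yᶜ x := by
  rw [← le_compl_iff, compl_compl]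

theorem le_compl_self {x : Set Om} : βO.Le x xᶜ ↔ βO.Null x := by simp [Le]

theorem Good.not_null {S : Set Item} (hS : Good S) {g : Set Om} {r : Lam} (h : inl (g, r) ∈ S) :
    ¬ βO.Null g := fun hn => hS.link _ _ _ _ h h (hn.le _)

theorem Good.addGen {S : Set Item} (hS : Good S) {g : Set Om} {r : Lam} (h1 : ¬ βO.Null g)
    (h2 : ∀ g' r', inl (g', r') ∈ S → ¬ βO.Le g' gᶜ)
    (h3 : ∀ u v r₀, inr (u, v, r₀) ∈ S → r ≤ r₀ → ¬ βO.Le g u) :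
    Good (insert (inl (g, r)) S) where
  link g₁ r₁ g₂ r₂ e1 e2 := by
    simp only [mem_insert_iff, inl.injEq, Prod.mk.injEq] at e1 e2
    rcases e1 with ⟨rfl, rfl⟩ | e1 <;> rcases e2 with ⟨e2, e2'⟩ | e2
    · rwa [e2, le_compl_self]
    · rw [le_compl_comm]; exact h2 _ _ e2
    · rw [e2]; exact h2 _ _ e1
    · exact hS.link _ _ _ _ e1 e2
  bgen u v r₀ e := by
    simp only [mem_insert_iff, reduceCtorEq, false_or] at e
    obtain ⟨e3, r₁, e4⟩ := hS.bgen _ _ _ e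
    exact ⟨Or.inr e3, r₁, Or.inr e4⟩
  prom u v r₀ g' r' e1 e2 hr := by
    simp only [mem_insert_iff, reduceCtorEq, false_or, inl.injEq, Prod.mk.injEq] at e1 e2
    rcases e2 with ⟨rfl, rfl⟩ | e2
    · exact h3 _ _ _ e1 hr
    · exact hS.prom _ _ _ _ _ e1 e2 hr
  anti u v r u' v' r' e1 e2 := by
    simp only [mem_insert_iff, reduceCtorEq, false_or] at e1 e2
    exact hS.anti _ _ _ _ _ _ e1 e2

theorem Good.addBase {S : Set Item} (hS : Good S) {u v : Set Om} {r r₁ : Lam}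
    (h1 : inl (vᶜ, r) ∈ S) (h2 : inl (u, r₁) ∈ S)
    (h3 : ∀ g r', inl (g, r') ∈ S → r' ≤ r → ¬ βO.Le g u)
    (h4 : ∀ u₀ v₀ r₀, inr (u₀, v₀, r₀) ∈ S →
      ¬ (βO.Le u u₀ ∧ βO.Le v v₀) ∧ ¬ (βO.Le u₀ u ∧ βO.Le v₀ v)) :
    Good (insert (inr (u, v, r)) S) where
  link g₁ r₁ g₂ r₂ e1 e2 := by
    simp only [mem_insert_iff, reduceCtorEq, false_or] at e1 e2
    exact hS.link _ _ _ _ e1 e2
  bgen u v r₀ e := by
    simp only [mem_insert_iff, inr.injEq, Prod.mk.injEq] at e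
    rcases e with ⟨rfl, rfl, rfl⟩ | e
    · exact ⟨Or.inr h1, r₁, Or.inr h2⟩
    · obtain ⟨e3, r₁, e4⟩ := hS.bgen _ _ _ e
      exact ⟨Or.inr e3, r₁, Or.inr e4⟩
  prom u v r₀ g' r' e1 e2 hr := by
    simp only [mem_insert_iff, reduceCtorEq, false_or, inr.injEq, Prod.mk.injEq] at e1 e2
    rcases e1 with ⟨rfl, rfl, rfl⟩ | e1
    · exact h3 _ _ e2 hr
    · exact hS.prom _ _ _ _ _ e1 e2 hr
  anti u₁ v₁ r₁ u₂ v₂ r₂ e1 e2 l1 l2 := by
    simp only [mem_insert_iff, inr.injEq, Prod.mk.injEq] at e1 e2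
    rcases e1 with ⟨rfl, rfl, rfl⟩ | e1 <;> rcases e2 with ⟨e2, e2', -⟩ | e2
    · exact ⟨e2.symm, e2'.symm⟩
    · exact absurd ⟨l1, l2⟩ (h4 _ _ _ e2).1
    · subst e2 e2'
      exact absurd ⟨l1, l2⟩ (h4 _ _ _ e1).2
    · exact hS.anti _ _ _ _ _ _ e1 e2 l1 l2

instance : Nonempty Lam := by
  obtain ⟨r, -⟩ := exists_fresh ∅ (by simpa using continuum_pos)
  exact ⟨r⟩

theorem fresh {S : Set Item} (h : #S < 𝔠) (r₀ : Lam) :
    ∃ r, r₀ < r ∧ (∀ g r', inl (g, r') ∈ S → r' < r) ∧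
      ∀ u v r', inr (u, v, r') ∈ S → r' < r := by
  let rk : Item → Lam := Sum.elim (·.2) (·.2.2)
  obtain ⟨r, hr⟩ := exists_fresh (insert r₀ (rk '' S)) (by
    refine mk_insert_le.trans_lt (add_lt_of_lt aleph0_le_continuum (mk_image_le.trans_lt h) ?_)
    exact one_lt_aleph0.trans aleph0_lt_continuum)
  exact ⟨r, hr _ (Or.inl rfl), fun g r' e => hr _ (Or.inr ⟨_, e, rfl⟩),
    fun u v r' e => hr _ (Or.inr ⟨_, e, rfl⟩)⟩

theorem generic' {S : Set Item} (h : #S < 𝔠) (e₁ e₂ e₃ : Set Om) {x x' : Set Om} (hx : x ⊆ x') :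
    ∃ u, x ⊆ u ∧ u ⊆ x' ∧ ∀ p, ((∃ r, inl (p, r) ∈ S) ∨ (∃ r, inl (pᶜ, r) ∈ S) ∨
      p = e₁ ∨ p = e₂ ∨ p = e₃) → (βO.Le u p → βO.Le x' p) ∧ (βO.Le p u → βO.Le p x) := by
  let f : Item → Set Om := Sum.elim (·.1) (·.1)
  obtain ⟨u, h1, h2, h3⟩ := generic
    ((⋃ a ∈ S, {f a, (f a)ᶜ}) ∪ {e₁, e₂, e₃}) (by
      refine (mk_union_le _ _).trans_lt (add_lt_of_lt aleph0_le_continuum
        (mk_biUnion_lt _ _ h fun _ _ => toFinite _) ?_)
      exact (toFinite _).lt_aleph0.trans aleph0_lt_continuum) hx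
  refine ⟨u, h1, h2, fun p hp => h3 p ?_⟩
  rcases hp with ⟨r, hp⟩ | ⟨r, hp⟩ | hp
  · exact Or.inl (mem_biUnion hp (by simp [f]))
  · exact Or.inl (mem_biUnion hp (by simp [f]))
  · exact Or.inr (by simpa using hp)

/-- finite good extension -/
def Ext (S S' : Set Item) : Prop := S ⊆ S' ∧ (S' \ S).Finite ∧ Good S'

theorem Ext.refl {S : Set Item} (h : Good S) : Ext S S := ⟨subset_rfl, by simp, h⟩

theorem Ext.trans {S S' S'' : Set Item} (h : Ext S S') (h' : Ext S' S'') : Ext S S'' :=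
  ⟨h.1.trans h'.1, (h.2.1.union h'.2.1).subset (by
    intro a ha; by_cases e : a ∈ S' <;> simp_all), h'.2.2⟩

theorem Ext.card {S S' : Set Item} (h : Ext S S') (hS : #S < 𝔠) : #S' < 𝔠 := by
  rw [← union_sdiff_cancel h.1]
  exact (mk_union_le _ _).trans_lt (add_lt_of_lt aleph0_le_continuum hS
    (h.2.1.lt_aleph0.trans aleph0_lt_continuum))

theorem Ext.insert {S : Set Item} {a : Item} (h : Good (insert a S)) : Ext S (insert a S) :=
  ⟨subset_insert _ _, (finite_singleton a).subset (fun b hb => hb.1.resolve_right hb.2), h⟩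

def Lg (S : Set Item) (z : Set Om) : Prop := ∃ g r, inl (g, r) ∈ S ∧ βO.Le g z

theorem Lg.mono {S S' : Set Item} {z : Set Om} (h : Lg S z) (hS : S ⊆ S') : Lg S' z := by
  obtain ⟨g, r, h1, h2⟩ := h
  exact ⟨g, r, hS h1, h2⟩

theorem Lg.up {S : Set Item} {z z' : Set Om} (h : Lg S z) (hz : z ⊆ z') : Lg S z' := by
  obtain ⟨g, r, h1, h2⟩ := h
  exact ⟨g, r, h1, h2.trans (Le.of_subset hz)⟩

theorem Lg.meets {S : Set Item} (hS : Good S) {z : Set Om} (h : Lg S z) {g : Set Om} {r : Lam}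
    (hg : inl (g, r) ∈ S) : ¬ βO.Le g zᶜ := by
  obtain ⟨g', r', h1, h2⟩ := h
  exact fun h => hS.link _ _ _ _ hg h1 (h.trans h2.compl)

theorem Lg.not_null {S : Set Item} (hS : Good S) {z : Set Om} (h : Lg S z) : ¬ βO.Null z := by
  obtain ⟨g', r', h1, h2⟩ := h
  exact fun h => hS.not_null h1 (le_empty_iff.1 (h2.trans (le_empty_iff.2 h)))

theorem Lg.not_le {S : Set Item} (hS : Good S) {z z' : Set Om} (h : Lg S z) (h' : Lg S z') :
    ¬ βO.Le z z'ᶜ := by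
  obtain ⟨g, r, h1, h2⟩ := h
  exact fun h => h'.meets hS h1 (h2.trans h)

theorem decide_ext {S : Set Item} (hS : Good S) (h : #S < 𝔠) (z : Set Om) :
    ∃ S', Ext S S' ∧ (Lg S' z ∨ Lg S' zᶜ) := by
  obtain ⟨r, -, -, hr⟩ := fresh h (Classical.arbitrary _)
  have key : ∀ z : Set Om, ¬ βO.Null z → ¬ Lg S zᶜ → ∃ S', Ext S S' ∧ Lg S' z := by
    intro z h1 h2
    exact ⟨_, Ext.insert (hS.addGen (r := r) h1 (fun g' r' e e' => h2 ⟨g', r', e, e'⟩)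
      (fun u v r₀ e hr' => absurd (hr _ _ _ e) (not_lt.2 hr'))), z, r, Or.inl rfl, Le.refl _⟩
  by_cases h1 : Lg S zᶜ
  · exact ⟨S, Ext.refl hS, Or.inr h1⟩
  by_cases h2 : βO.Null z
  · obtain ⟨S', e1, e2⟩ := key zᶜ (fun h => not_null_univ (by simpa using h2.union h))
      (fun h => h.not_null hS (by simpa using h2))
    exact ⟨S', e1, Or.inr e2⟩
  · obtain ⟨S', e1, e2⟩ := key z h2 h1
    exact ⟨S', e1, Or.inl e2⟩

theorem place {S : Set Item} (hS : Good S) (h : #S < 𝔠) {x y x' y' : Set Om} (hx : x ⊆ x')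
    (hy : y ⊆ y')
    (f1 : ∀ u v r, inr (u, v, r) ∈ S → ¬ (βO.Le u x ∧ βO.Le v y))
    (f2 : ∀ u v r, inr (u, v, r) ∈ S → ¬ (βO.Le x' u ∧ βO.Le y' v))
    (r' : Lam) (c1 : ∀ g r, inl (g, r) ∈ S → r ≤ r' → ¬ βO.Le g x)
    (c2 : ∀ u v r, inr (u, v, r) ∈ S → r' ≤ r → ¬ βO.Le yᶜ u)
    (c3 : ¬ βO.Le yᶜ x) (c4 : ∀ g r, inl (g, r) ∈ S → ¬ βO.Le g y) (c5 : ¬ βO.Null yᶜ)
    (d1 : ∀ g r, inl (g, r) ∈ S → ¬ βO.Le g x'ᶜ) (d2 : ¬ βO.Null x') (d3 : ¬ βO.Le x' y) :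
    ∃ S', Ext S S' ∧ ∃ u v, inr (u, v, r') ∈ S' ∧ x ⊆ u ∧ u ⊆ x' ∧ y ⊆ v ∧ v ⊆ y' := by
  obtain ⟨v, v1, v2, hv⟩ := generic' h univ x' xᶜ hy
  obtain ⟨u, u1, u2, hu⟩ := generic' h ∅ v vᶜ hx
  obtain ⟨r₁, q1, -, q3⟩ := fresh h r'
  have g1 : Good (insert (inl (vᶜ, r')) S) := by
    refine hS.addGen (fun e => c5 ?_) (fun g r e e' => c4 g r e ?_)
      (fun u₀ v₀ r₀ e hr e' => c2 _ _ _ e hr ?_)
    · have := (hv univ (by simp)).2 (by simpa [Le, ← compl_eq_univ_sdiff] using e)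
      simpa [Le, ← compl_eq_univ_sdiff] using this
    · exact (hv g (Or.inl ⟨r, e⟩)).2 (by simpa using e')
    · obtain ⟨r₁, e1⟩ := (hS.bgen _ _ _ e).2
      exact compl_le_comm.1 ((hv u₀ᶜ (Or.inr (Or.inl ⟨r₁, by simpa using e1⟩))).2
        (compl_le_comm.1 e'))
  have g2 : Good (insert (inl (u, r₁)) (insert (inl (vᶜ, r')) S)) := by
    refine g1.addGen (fun e => d2 ?_) (fun g r e e' => ?_) (fun u₀ v₀ r₀ e hr => ?_)
    · exact le_empty_iff.1 ((hu ∅ (by simp)).1 (le_empty_iff.2 e))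
    · simp only [mem_insert_iff, inl.injEq, Prod.mk.injEq] at e
      rcases e with ⟨rfl, rfl⟩ | e
      · exact d3 ((hv x' (by simp)).2 ((hu v (by simp)).1 (le_compl_iff.1 e')))
      · exact d1 g r e (le_compl_comm.1 ((hu gᶜ (Or.inr (Or.inl ⟨r, by simpa using e⟩))).1
          (le_compl_comm.1 e')))
    · simp only [mem_insert_iff, reduceCtorEq, false_or] at e
      exact absurd (q3 _ _ _ e) (not_lt.2 hr)
  have g3 : Good (insert (inr (u, v, r')) (insert (inl (u, r₁)) (insert (inl (vᶜ, r')) S))) := by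
    refine g2.addBase (r₁ := r₁) (by simp) (by simp) (fun g r e hr e' => ?_)
      (fun u₀ v₀ r₀ e => ?_)
    · simp only [mem_insert_iff, inl.injEq, Prod.mk.injEq] at e
      rcases e with ⟨rfl, rfl⟩ | ⟨rfl, rfl⟩ | e
      · exact absurd q1 (not_lt.2 hr)
      · exact c3 (compl_le_comm.1 ((hv xᶜ (by simp)).2
          (compl_le_comm.1 ((hu vᶜ (by simp)).2 e'))))
      · exact c1 g r e hr ((hu g (Or.inl ⟨r, e⟩)).2 e')
    · simp only [mem_insert_iff, reduceCtorEq, false_or] at e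
      obtain ⟨e1, r₂, e2⟩ := hS.bgen _ _ _ e
      have a1 := hu u₀ (Or.inl ⟨r₂, e2⟩)
      have a2 := hv v₀ (Or.inr (Or.inl ⟨r₀, e1⟩))
      exact ⟨fun e' => f2 _ _ _ e ⟨a1.1 e'.1, a2.1 e'.2⟩,
        fun e' => f1 _ _ _ e ⟨a1.2 e'.1, a2.2 e'.2⟩⟩
  exact ⟨_, ((Ext.insert g1).trans (Ext.insert g2)).trans (Ext.insert g3), u, v, Or.inl rfl,
    u1, u2, v1, v2⟩

def Pos (a b x y x' y' : Set Om) : Prop :=
  (βO.Le a x ∧ βO.Le b y) ∨ (βO.Le x' a ∧ βO.Le y' b) ∨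
    ((βO.Le x a ∧ βO.Le y b) ∧ (βO.Le a x' ∧ βO.Le b y'))

def Hit (S : Set Item) (x y x' y' : Set Om) : Prop :=
  ∃ u v r, inr (u, v, r) ∈ S ∧ (Pos u v x y x' y' ∨ Pos uᶜ vᶜ x y x' y')

theorem Pos.of_compl {a b x y x' y' : Set Om} (h : Pos a b x'ᶜ y'ᶜ xᶜ yᶜ) :
    Pos aᶜ bᶜ x y x' y' := by
  rcases h with h | h | h
  · exact Or.inr (Or.inl ⟨le_compl_comm.1 h.1, le_compl_comm.1 h.2⟩)
  · exact Or.inl ⟨compl_le_comm.1 h.1, compl_le_comm.1 h.2⟩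
  · exact Or.inr (Or.inr ⟨⟨le_compl_comm.1 h.2.1, le_compl_comm.1 h.2.2⟩,
      compl_le_comm.1 h.1.1, compl_le_comm.1 h.1.2⟩)

theorem Hit.of_compl {S : Set Item} {x y x' y' : Set Om} (h : Hit S x'ᶜ y'ᶜ xᶜ yᶜ) :
    Hit S x y x' y' := by
  obtain ⟨u, v, r, h1, h2 | h2⟩ := h
  · exact ⟨u, v, r, h1, Or.inr h2.of_compl⟩
  · exact ⟨u, v, r, h1, Or.inl (by simpa using h2.of_compl)⟩

theorem caseA {S : Set Item} (hS : Good S) (h : #S < 𝔠) {x y x' y' : Set Om} (hx : x ⊆ x')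
    (hy : y ⊆ y') (hL : Lg S x) : ∃ S', Ext S S' ∧ Hit S' x y x' y' := by
  by_cases hh : Hit S x y x' y'
  · exact ⟨S, Ext.refl hS, hh⟩
  have f1 : ∀ u v r, inr (u, v, r) ∈ S → ¬ (βO.Le u x ∧ βO.Le v y) :=
    fun u v r e e' => hh ⟨u, v, r, e, Or.inl (Or.inl e')⟩
  have f2 : ∀ u v r, inr (u, v, r) ∈ S → ¬ (βO.Le x' u ∧ βO.Le y' v) :=
    fun u v r e e' => hh ⟨u, v, r, e, Or.inl (Or.inr (Or.inl e'))⟩
  by_cases hc : ∃ u v r, inr (u, v, r) ∈ S ∧ βO.Le x u ∧ βO.Le y v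
  · obtain ⟨u₀, v₀, r₀, e, e1, e2⟩ := hc
    have e3 := (hS.bgen _ _ _ e).1
    have e4 : Lg S yᶜ := ⟨_, _, e3, e2.compl⟩
    obtain ⟨S', h1, u, v, h2, h3, h4, h5, h6⟩ := place hS h hx hy f1 f2 r₀
      (fun g r e' hr e'' => hS.prom _ _ _ _ _ e e' hr (e''.trans e1))
      (fun u v r e' hr e'' => hS.prom _ _ _ _ _ e' e3 hr (e2.compl.trans e''))
      (fun e'' => hS.prom _ _ _ _ _ e e3 le_rfl ((e2.compl.trans e'').trans e1))
      (fun g r e' => by simpa using e4.meets hS e') (e4.not_null hS)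
      (fun g r e' => (hL.up hx).meets hS e') ((hL.up hx).not_null hS)
      (by simpa using (hL.up hx).not_le hS e4)
    exact ⟨S', h1, u, v, r₀, h2, Or.inl (Or.inr (Or.inr ⟨⟨Le.of_subset h3, Le.of_subset h5⟩,
      Le.of_subset h4, Le.of_subset h6⟩))⟩
  · obtain ⟨r', -, -, hr⟩ := fresh h (Classical.arbitrary _)
    obtain ⟨S', h1, u, v, h2, h3, h4, h5, h6⟩ := place hS h (empty_subset x) (empty_subset y)
      (fun u v r e e' => by
        obtain ⟨r₁, e1⟩ := (hS.bgen _ _ _ e).2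
        exact hS.not_null e1 (le_empty_iff.1 e'.1))
      (fun u v r e e' => hc ⟨u, v, r, e, e'⟩) r'
      (fun g r e _ e' => hS.not_null e (le_empty_iff.1 e'))
      (fun u v r e hr' => absurd (hr _ _ _ e) (not_lt.2 hr'))
      (fun e => not_null_univ (by simpa using le_empty_iff.1 e))
      (fun g r e e' => hS.not_null e (le_empty_iff.1 e'))
      (by simpa using not_null_univ)
      (fun g r e' => hL.meets hS e') (hL.not_null hS)
      (fun e => hL.not_null hS (le_empty_iff.1 e))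
    exact ⟨S', h1, u, v, r', h2, Or.inl (Or.inl ⟨Le.of_subset h4, Le.of_subset h6⟩)⟩

theorem caseB {S : Set Item} (hS : Good S) (h : #S < 𝔠) {x y x' y' : Set Om} (hx : x ⊆ x')
    (hy : y ⊆ y') (h1 : Lg S xᶜ) (h2 : Lg S x') (h3 : Lg S yᶜ) :
    ∃ S', Ext S S' ∧ Hit S' x y x' y' := by
  by_cases hh : Hit S x y x' y'
  · exact ⟨S, Ext.refl hS, hh⟩
  have f1 : ∀ u v r, inr (u, v, r) ∈ S → ¬ (βO.Le u x ∧ βO.Le v y) :=
    fun u v r e e' => hh ⟨u, v, r, e, Or.inl (Or.inl e')⟩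
  have f2 : ∀ u v r, inr (u, v, r) ∈ S → ¬ (βO.Le x' u ∧ βO.Le y' v) :=
    fun u v r e e' => hh ⟨u, v, r, e, Or.inl (Or.inr (Or.inl e'))⟩
  obtain ⟨r', -, -, hr⟩ := fresh h (Classical.arbitrary _)
  obtain ⟨S', e1, u, v, e2, e3, e4, e5, e6⟩ := place hS h hx hy f1 f2 r'
    (fun g r e _ => by simpa using h1.meets hS e)
    (fun u v r e hr' => absurd (hr _ _ _ e) (not_lt.2 hr'))
    (by simpa using h3.not_le hS h1)
    (fun g r e => by simpa using h3.meets hS e) (h3.not_null hS)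
    (fun g r e' => h2.meets hS e') (h2.not_null hS)
    (by simpa using h2.not_le hS h3)
  exact ⟨S', e1, u, v, r', e2, Or.inl (Or.inr (Or.inr ⟨⟨Le.of_subset e3, Le.of_subset e5⟩,
      Le.of_subset e4, Le.of_subset e6⟩))⟩

theorem step_ext {S : Set Item} (hS : Good S) (h : #S < 𝔠) {x y x' y' : Set Om} (hx : x ⊆ x')
    (hy : y ⊆ y') : ∃ S', Ext S S' ∧ (Lg S' x ∨ Lg S' xᶜ) ∧ Hit S' x y x' y' := by
  obtain ⟨S₁, e1, d1⟩ := decide_ext hS h x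
  obtain ⟨S₂, e2, d2⟩ := decide_ext e1.2.2 (e1.card h) x'
  have e12 := e1.trans e2
  obtain ⟨S₃, e3, d3⟩ := decide_ext e2.2.2 (e12.card h) y
  have e := e12.trans e3
  have c := e.card h
  have d1' : Lg S₃ x ∨ Lg S₃ xᶜ := d1.imp (·.mono (e2.trans e3).1) (·.mono (e2.trans e3).1)
  have d2' : Lg S₃ x' ∨ Lg S₃ x'ᶜ := d2.imp (·.mono e3.1) (·.mono e3.1)
  have : ∃ S', Ext S₃ S' ∧ Hit S' x y x' y' := by
    rcases d1' with d1' | d1'
    · exact caseA e.2.2 c hx hy d1'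
    rcases d2' with d2' | d2'
    · rcases d3 with d3 | d3
      · obtain ⟨S', a1, a2⟩ := caseB e.2.2 c (compl_subset_compl.2 hx) (compl_subset_compl.2 hy)
          (by simpa using d2') d1' (by simpa using d3.up hy)
        exact ⟨S', a1, a2.of_compl⟩
      · exact caseB e.2.2 c hx hy d1' d2' d3
    · obtain ⟨S', a1, a2⟩ := caseA e.2.2 c (compl_subset_compl.2 hx) (compl_subset_compl.2 hy) d2'
      exact ⟨S', a1, a2.of_compl⟩
  obtain ⟨S', a1, a2⟩ := this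
  exact ⟨S', e.trans a1, d1'.imp (·.mono a1.1) (·.mono a1.1), a2⟩

theorem exists_top : ∃ S : Set Item, Good S ∧ (∀ x, Lg S x ∨ Lg S xᶜ) ∧
    ∀ x y x' y', x ⊆ x' → y ⊆ y' → Hit S x y x' y' := by
  obtain ⟨S, h1, h2⟩ := transfinite (T := Set Om × Set Om × Set Om × Set Om) Good
    (fun t S => t.1 ⊆ t.2.2.1 → t.2.1 ⊆ t.2.2.2 →
      (Lg S t.1 ∨ Lg S t.1ᶜ) ∧ Hit S t.1 t.2.1 t.2.2.1 t.2.2.2)
    (by
      have : #(Set Om) ≤ 𝔠 := by
        rw [mk_set, ← two_power_aleph0]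
        exact power_le_power_left two_ne_zero mk_le_aleph0
      simp only [mk_prod, lift_id]
      exact (mul_le_mul' this (mul_le_mul' this (mul_le_mul' this this))).trans (by simp))
    good_fin
    (fun t S S' hS h e1 e2 => by
      obtain ⟨a, u, v, r, b, c⟩ := h e1 e2
      exact ⟨a.imp (·.mono hS) (·.mono hS), u, v, r, hS b, c⟩)
    (fun S hS h t => by
      by_cases e : t.1 ⊆ t.2.2.1 ∧ t.2.1 ⊆ t.2.2.2
      · obtain ⟨S', a1, a2⟩ := step_ext hS h e.1 e.2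
        exact ⟨S', a1.1, a1.2.1, a1.2.2, fun _ _ => a2⟩
      · exact ⟨S, subset_rfl, by simp, hS, fun e1 e2 => absurd ⟨e1, e2⟩ e⟩)
  exact ⟨S, h1, fun x => (h2 (x, x, x, x) subset_rfl subset_rfl).1,
    fun x y x' y' hx hy => (h2 (x, y, x', y') hx hy).2⟩

end Crest.Agent.R53
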