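import Crest.Agent.R53.Split

set_option autoImplicit false

namespace Crest.Agent.R53

open Set Cardinal

theorem transfinite {D T : Type} [Nonempty T] (Good : Set D → Prop) (Done : T → Set D → Prop)
    (hT : #T ≤ 𝔠)
    (hfin : ∀ S : Set D, (∀ a ∈ S, ∀ b ∈ S, ∃ S', S' ⊆ S ∧ Good S' ∧ a ∈ S' ∧ b ∈ S') → Good S)
    (hmono : ∀ t S S', S ⊆ S' → Done t S → Done t S')
    (step : ∀ S : Set D, Good S → #S < 𝔠 → ∀ t, ∃ S', S ⊆ S' ∧ (S' \ S).Finite ∧ Good S' ∧
      Done t S') :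
    ∃ S, Good S ∧ ∀ t, Done t S := by
  classical
  let W : Type := (𝔠 : Cardinal.{0}).ord.ToType
  have hW : #W = 𝔠 := mk_ord_toType _
  obtain ⟨ι⟩ : Nonempty (T ↪ W) := by rw [← Cardinal.le_def, hW]; exact hT
  let τ : W → T := Function.invFun ι
  have hτ : Function.Surjective τ := Function.invFun_surjective ι.injective
  let G : Set D → T → Set D := fun S t =>
    if h : Good S ∧ #S < 𝔠 then (step S h.1 h.2 t).choose \ S else ∅
  have hGf : ∀ S t, (G S t).Finite := by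
    intro S t
    simp only [G]
    split_ifs with h
    · exact (step S h.1 h.2 t).choose_spec.2.1
    · exact finite_empty
  have hG : ∀ S t, Good S → #S < 𝔠 → Good (S ∪ G S t) ∧ Done t (S ∪ G S t) := by
    intro S t h1 h2
    simp only [G, dif_pos (And.intro h1 h2)]
    obtain ⟨e1, -, e2⟩ := (step S h1 h2 t).choose_spec
    rwa [union_sdiff_cancel e1]
  let F : W → Set D := (wellFounded_lt (α := W)).fix
    (fun w rec => G (⋃ (v : W) (h : v < w), rec v h) (τ w))
  have hF : ∀ w, F w = G (⋃ v ∈ Iio w, F v) (τ w) := fun w => WellFounded.fix_eq _ _ w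
  have hcard : ∀ w, #(⋃ v ∈ Iio w, F v) < 𝔠 := fun w =>
    mk_biUnion_lt _ _ (by simpa [W] using mk_Iio_lt w (by simp [W]))
      (fun v _ => by rw [hF]; exact hGf _ _)
  have key : ∀ (P : Set W), (∀ v ∈ P, ∀ v' < v, v' ∈ P) →
      (∀ v ∈ P, Good ((⋃ v' ∈ Iio v, F v') ∪ F v)) → Good (⋃ v ∈ P, F v) := by
    intro P hP h
    refine hfin _ fun a ha b hb => ?_
    simp only [mem_iUnion] at ha hb
    obtain ⟨v₁, h₁, ha⟩ := ha
    obtain ⟨v₂, h₂, hb⟩ := hb
    have hsub : ∀ v ∈ P, (⋃ v' ∈ Iio v, F v') ∪ F v ⊆ ⋃ v ∈ P, F v := fun v hv =>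
      union_subset (biUnion_subset_biUnion_left fun v' hv' => hP v hv v' hv')
        (subset_biUnion_of_mem hv)
    rcases lt_trichotomy v₁ v₂ with hlt | rfl | hlt
    · exact ⟨_, hsub v₂ h₂, h v₂ h₂, Or.inl (mem_biUnion hlt ha), Or.inr hb⟩
    · exact ⟨_, hsub v₁ h₁, h v₁ h₁, Or.inr ha, Or.inr hb⟩
    · exact ⟨_, hsub v₁ h₁, h v₁ h₁, Or.inr ha, Or.inl (mem_biUnion hlt hb)⟩
  have main : ∀ w, Good ((⋃ v ∈ Iio w, F v) ∪ F w) ∧ Done (τ w) ((⋃ v ∈ Iio w, F v) ∪ F w) := by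
    intro w
    induction w using WellFoundedLT.induction with
    | ind w ih =>
      rw [hF w]
      exact hG _ _ (key (Iio w) (fun v hv v' hv' => lt_trans hv' hv) fun v hv => (ih v hv).1)
        (hcard w)
  refine ⟨⋃ v ∈ (univ : Set W), F v, key univ (fun _ _ _ _ => trivial) fun v _ => (main v).1,
    fun t => ?_⟩
  obtain ⟨w, rfl⟩ := hτ t
  exact hmono _ _ _ (union_subset (biUnion_subset_biUnion_left (subset_univ _))
    (subset_biUnion_of_mem (u := F) (mem_univ w))) (main w).2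

/-- the type of ranks -/
abbrev Lam : Type := (Order.succ (𝔠 : Cardinal.{0})).ord.ToType

theorem exists_fresh (S : Set Lam) (h : #S < 𝔠) : ∃ r, ∀ s ∈ S, s < r := by
  by_contra hc
  push Not at hc
  have h1 : (univ : Set Lam) ⊆ ⋃ s ∈ S, Iic s := fun r _ => by
    obtain ⟨s, hs, h⟩ := hc r
    exact mem_biUnion hs h
  have h2 : #(⋃ s ∈ S, Iic s) ≤ 𝔠 := by
    refine (mk_biUnion_le _ S).trans ?_
    refine (mul_le_mul' h.le (ciSup_le' (a := 𝔠) fun s => ?_)).trans (by simp)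
    have e1 : #(Iio s.1) ≤ 𝔠 := by
      have := mk_Iio_lt s.1 (by simp)
      simpa using this
    rw [← Iio_union_right]
    refine (mk_union_le _ _).trans ?_
    simp only [mk_fintype, Fintype.card_unique, Nat.cast_one]
    exact (add_le_add e1 (one_le_aleph0.trans aleph0_le_continuum)).trans (by simp)
  have h3 := (mk_le_mk_of_subset h1).trans h2
  simp at h3

end Crest.Agent.R53
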